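import Crest.Agent.Helper67.SW.TwoPairFibre
import Crest.Agent.Helper10.S0453.DPApi

/-!
# S0453 (helper54): dictionary between the pair interface of record and the fibre coordinates

helper10's objects (`SwAt`, `Split`, `flip` of `Crest/Agent/Helper10/S0453/DP.lean`) are expressed
in helper67's coordinates (`Quad`, `q.blk`, `Blk.cp`, `Blk.cm`, `q.assemble`, `q.partR/A/C`,
`q.key` of `Crest/Agent/Helper67/SW/TwoPairFibre.lean`):

* `swAt_iff`, `swAt_iff'`, `swAt_swap`, `swAt_swap'`, `split_iff`, `split_swap`;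
* `partR_flip`, `partA_flip`, `partC_flip`, `blk_flip` (flip keeps the three outer parts and
  complements the block), `flip_eq_assemble`;
* `flip_cp`, `flip_cm`, `flip_cp_coords`, `flip_cm_coords`.
-/

set_option autoImplicit false

namespace Crest.Agent.Helper54.SW

open Finset Crest.SwitchChain
open Crest.Agent.Helper65.Switch Crest.Agent.Helper10.S0453 Crest.Agent.Helper67.SW

variable {n : ℕ} (q : Quad n)

/-- the four vertices of a `Quad` are pairwise distinct in the sense of helper10. -/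
lemma d4 : D4 q.a q.b q.u q.v := ⟨q.hab, q.hau, q.hav, q.hbu, q.hbv, q.huv⟩

/-! ### `SwAt` and `Split` in block coordinates -/

lemma swAt_iff (G : Finset (Edge n)) : SwAt G q.a q.b q.u q.v ↔ q.blk G = Blk.cp := by
  unfold SwAt
  rw [adj_iff q.hau, adj_iff q.hbv, adj_iff q.hav, adj_iff q.hbu]
  simp only [Quad.blk, Blk.cp, Prod.mk.injEq, decide_eq_true_eq, decide_eq_false_iff_not]
  constructor
  · rintro ⟨h1, h2, h3, h4⟩
    exact ⟨h1, h3, h4, h2⟩
  · rintro ⟨h1, h3, h4, h2⟩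
    exact ⟨h1, h2, h3, h4⟩

lemma swAt_iff' (G : Finset (Edge n)) : SwAt G q.a q.b q.v q.u ↔ q.blk G = Blk.cm := by
  unfold SwAt
  rw [adj_iff q.hav, adj_iff q.hbu, adj_iff q.hau, adj_iff q.hbv]
  simp only [Quad.blk, Blk.cm, Prod.mk.injEq, decide_eq_true_eq, decide_eq_false_iff_not]
  constructor
  · rintro ⟨h1, h2, h3, h4⟩
    exact ⟨h3, h1, h2, h4⟩
  · rintro ⟨h3, h1, h2, h4⟩
    exact ⟨h1, h2, h3, h4⟩

lemma swAt_swap (G : Finset (Edge n)) : SwAt G q.u q.v q.a q.b ↔ q.blk G = Blk.cp := by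
  rw [← Crest.Agent.Helper10.S0453.swAt_swap, swAt_iff]

lemma swAt_swap' (G : Finset (Edge n)) : SwAt G q.u q.v q.b q.a ↔ q.blk G = Blk.cm := by
  rw [Crest.Agent.Helper10.S0453.swAt_swap, Crest.Agent.Helper10.S0453.swAt_comm, swAt_iff']

lemma split_iff (G : Finset (Edge n)) :
    Split G q.a q.b q.u q.v ↔ (q.blk G = Blk.cp ∨ q.blk G = Blk.cm) := by
  unfold Split
  rw [swAt_iff, swAt_iff']

lemma split_swap (G : Finset (Edge n)) :
    Split G q.u q.v q.a q.b ↔ (q.blk G = Blk.cp ∨ q.blk G = Blk.cm) := by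
  unfold Split
  rw [swAt_swap, swAt_swap']

/-! ### `flip` in coordinates -/

/-- the bitwise complement of a block. -/
def bnot (M : Blk) : Blk := (!M.1, !M.2.1, !M.2.2.1, !M.2.2.2)

lemma bnot_cp : bnot Blk.cp = Blk.cm := rfl
lemma bnot_cm : bnot Blk.cm = Blk.cp := rfl

/-- helper10's block is the set of edges touching both pairs. -/
lemma mem_blk_iff (x : Edge n) : x ∈ blk q.a q.b q.u q.v ↔ q.tP x ∧ q.tQ x := by
  rw [mem_blk]
  constructor
  · rintro (h | h | h | h)
    · have : x = q.eau := Subtype.ext h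
      rw [this]; exact ⟨q.tP_eau, q.tQ_eau⟩
    · have : x = q.ebv := Subtype.ext h
      rw [this]; exact ⟨q.tP_ebv, q.tQ_ebv⟩
    · have : x = q.eav := Subtype.ext h
      rw [this]; exact ⟨q.tP_eav, q.tQ_eav⟩
    · have : x = q.ebu := Subtype.ext h
      rw [this]; exact ⟨q.tP_ebu, q.tQ_ebu⟩
  · rintro ⟨hP, hQ⟩
    rcases q.eq_block_of_tP_tQ hP hQ with rfl | rfl | rfl | rfl
    · exact Or.inl rfl
    · exact Or.inr (Or.inr (Or.inl rfl))
    · exact Or.inr (Or.inr (Or.inr rfl))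
    · exact Or.inr (Or.inl rfl)

lemma mem_flip_of_not_blk {G : Finset (Edge n)} {x : Edge n} (hx : ¬ (q.tP x ∧ q.tQ x)) :
    x ∈ flip q.a q.b q.u q.v G ↔ x ∈ G := by
  rw [mem_flip, mem_blk_iff]
  tauto

lemma mem_flip_of_blk {G : Finset (Edge n)} {x : Edge n} (hx : q.tP x ∧ q.tQ x) :
    x ∈ flip q.a q.b q.u q.v G ↔ x ∉ G := by
  rw [mem_flip, mem_blk_iff]
  tauto

lemma partR_flip (G : Finset (Edge n)) : q.partR (flip q.a q.b q.u q.v G) = q.partR G := by
  ext x
  simp only [Quad.partR, Finset.mem_filter]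
  constructor
  · rintro ⟨h, h1, h2⟩
    exact ⟨(mem_flip_of_not_blk q (fun hh => h1 hh.1)).1 h, h1, h2⟩
  · rintro ⟨h, h1, h2⟩
    exact ⟨(mem_flip_of_not_blk q (fun hh => h1 hh.1)).2 h, h1, h2⟩

lemma partA_flip (G : Finset (Edge n)) : q.partA (flip q.a q.b q.u q.v G) = q.partA G := by
  ext x
  simp only [Quad.partA, Finset.mem_filter]
  constructor
  · rintro ⟨h, h1, h2⟩
    exact ⟨(mem_flip_of_not_blk q (fun hh => h2 hh.2)).1 h, h1, h2⟩
  · rintro ⟨h, h1, h2⟩
    exact ⟨(mem_flip_of_not_blk q (fun hh => h2 hh.2)).2 h, h1, h2⟩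

lemma partC_flip (G : Finset (Edge n)) : q.partC (flip q.a q.b q.u q.v G) = q.partC G := by
  ext x
  simp only [Quad.partC, Finset.mem_filter]
  constructor
  · rintro ⟨h, h1, h2⟩
    exact ⟨(mem_flip_of_not_blk q (fun hh => h1 hh.1)).1 h, h1, h2⟩
  · rintro ⟨h, h1, h2⟩
    exact ⟨(mem_flip_of_not_blk q (fun hh => h1 hh.1)).2 h, h1, h2⟩

lemma blk_flip (G : Finset (Edge n)) : q.blk (flip q.a q.b q.u q.v G) = bnot (q.blk G) := by
  have h1 := mem_flip_of_blk q (G := G) ⟨q.tP_eau, q.tQ_eau⟩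
  have h2 := mem_flip_of_blk q (G := G) ⟨q.tP_eav, q.tQ_eav⟩
  have h3 := mem_flip_of_blk q (G := G) ⟨q.tP_ebu, q.tQ_ebu⟩
  have h4 := mem_flip_of_blk q (G := G) ⟨q.tP_ebv, q.tQ_ebv⟩
  simp only [Quad.blk, bnot, h1, h2, h3, h4, decide_not]

/-- normal form of the flipped graph: same `R`, `A`, `C` parts, complemented block. -/
lemma flip_eq_assemble (G : Finset (Edge n)) :
    flip q.a q.b q.u q.v G
      = q.assemble (q.partR G) (q.partA G) (q.partC G) (bnot (q.blk G)) := by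
  conv_lhs => rw [q.decomp' (flip q.a q.b q.u q.v G)]
  rw [partR_flip, partA_flip, partC_flip, blk_flip]

lemma flip_cp {G : Finset (Edge n)} (h : q.blk G = Blk.cp) :
    flip q.a q.b q.u q.v G = q.assemble (q.partR G) (q.partA G) (q.partC G) Blk.cm := by
  rw [flip_eq_assemble, h, bnot_cp]

lemma flip_cm {G : Finset (Edge n)} (h : q.blk G = Blk.cm) :
    flip q.a q.b q.u q.v G = q.assemble (q.partR G) (q.partA G) (q.partC G) Blk.cp := by
  rw [flip_eq_assemble, h, bnot_cm]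

/-- on a centre state the flip stays in the fibre of the key. -/
lemma key_flip {G : Finset (Edge n)} (h : q.blk G = Blk.cp ∨ q.blk G = Blk.cm) :
    q.key (flip q.a q.b q.u q.v G) = q.key G := by
  rw [q.key_eq_iff, partR_flip, partA_flip, blk_flip]
  refine ⟨rfl, fun _ _ => rfl, ?_⟩
  rcases h with h | h <;> rw [h] <;> rfl

lemma flip_cp_coords {d : Fin n → ℕ} {G : Finset (Edge n)} (hG : G ∈ realizations d)
    (h : q.blk G = Blk.cp) :
    flip q.a q.b q.u q.v G ∈ realizations d ∧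
      q.key (flip q.a q.b q.u q.v G) = q.key G ∧
      q.blk (flip q.a q.b q.u q.v G) = Blk.cm ∧
      q.partA (flip q.a q.b q.u q.v G) = q.partA G ∧
      q.partC (flip q.a q.b q.u q.v G) = q.partC G :=
  ⟨flip_mem_realizations (d4 q) hG ((split_iff q G).2 (Or.inl h)), key_flip q (Or.inl h),
    by rw [blk_flip, h, bnot_cp], partA_flip q G, partC_flip q G⟩

lemma flip_cm_coords {d : Fin n → ℕ} {G : Finset (Edge n)} (hG : G ∈ realizations d)
    (h : q.blk G = Blk.cm) :
    flip q.a q.b q.u q.v G ∈ realizations d ∧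
      q.key (flip q.a q.b q.u q.v G) = q.key G ∧
      q.blk (flip q.a q.b q.u q.v G) = Blk.cp ∧
      q.partA (flip q.a q.b q.u q.v G) = q.partA G ∧
      q.partC (flip q.a q.b q.u q.v G) = q.partC G :=
  ⟨flip_mem_realizations (d4 q) hG ((split_iff q G).2 (Or.inr h)), key_flip q (Or.inr h),
    by rw [blk_flip, h, bnot_cm], partA_flip q G, partC_flip q G⟩

end Crest.Agent.Helper54.SW
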