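import Crest.Agent.Helper54.SW.TplDict
import Crest.Agent.Helper17.SW.TwoPairSpec

/-!
# S0453 (helper54): the two sides of `TPLGraph` in the vocabulary of the transport interface

helper10's `Sw`, `Bad`, `IPair` (on helper65's `cls`/`Qavg`/`Rop`) are rewritten with helper17's
generic `cls`/`avg`/`badC`/`swC` (`Crest/Agent/Helper17/SW/{Avg,TwoPairSpec}.lean`) for the keys
`offU {a, b}`, `offU {u, v}` and helper67's coordinates `q.blk`, `q.partA`, `q.partC`, `q.key`:

* `cls_eq`, `Qavg_eq`, `Rop_eq`, `IPair_eq` (any vertex sets `U`, `U'`);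
* `Bad_eq`, `Bad_eq'`, `Sw_eq` (global, on `realizations d`);
* `badC_cls` (localisation of `badC` to the fibres of a coarser key);
* `swC_fibre` (on a fibre of `q.key`, `swC` is the sum over the `cp`-states of
  `(f G - f (flip G))²`), `Sw_eq_sum_ite`.
-/

set_option autoImplicit false

namespace Crest.Agent.Helper54.SW

open Finset Crest.SwitchChain
open Crest.Agent.Helper65.Switch Crest.Agent.Helper10.S0453 Crest.Agent.Helper67.SW
open Crest.Agent.Helper17

variable {n : ℕ}

/-! ### helper65's classes are the classes of the key `offU U` -/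

theorem cls_eq (d : Fin n → ℕ) (U : Finset (Fin n)) (G : Finset (Edge n)) :
    cls d U G = SW.cls (realizations d) (offU U) G := by
  ext G'
  rw [mem_cls, SW.mem_cls]

theorem Qavg_eq (d : Fin n → ℕ) (U : Finset (Fin n)) (f : Finset (Edge n) → ℝ)
    (G : Finset (Edge n)) : Qavg d U f G = SW.avg (realizations d) (offU U) f G := by
  rw [Qavg_def, SW.avg, cls_eq]

theorem Rop_eq (d : Fin n → ℕ) (U : Finset (Fin n)) (f : Finset (Edge n) → ℝ)
    (G : Finset (Edge n)) : Rop d U f G = f G - SW.avg (realizations d) (offU U) f G := by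
  rw [Rop_def, Qavg_eq]

theorem IPair_eq (d : Fin n → ℕ) (f : Finset (Edge n) → ℝ) (U U' : Finset (Fin n)) :
    IPair d f U U' = ∑ G ∈ realizations d,
      (f G - SW.avg (realizations d) (offU U) f G) *
        (f G - SW.avg (realizations d) (offU U') f G) := by
  unfold IPair
  refine Finset.sum_congr rfl fun G _ => ?_
  rw [Rop_eq, Rop_eq]

/-! ### the two block types agree -/

theorem cp_eq : SW.Blk4.cp = Blk.cp := rfl
theorem cm_eq : SW.Blk4.cm = Blk.cm := rfl

theorem ctr_iff (M : Blk) : SW.Blk4.ctr M ↔ (M = Blk.cp ∨ M = Blk.cm) := Iff.rfl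

theorem rho_eq (M : Blk) : SW.Blk4.rho M = M.rho := rfl
theorem kap_eq (M : Blk) : SW.Blk4.kap M = M.kap := rfl
theorem tot_eq (M : Blk) : SW.Blk4.tot M = M.tot := rfl

/-- a centre block has two edges. -/
theorem tot_of_ctr {M : Blk} (h : SW.Blk4.ctr M) : M.tot = 2 := by
  rcases h with rfl | rfl <;> rfl

variable (q : Quad n)

/-! ### `Bad` and `Sw` on `realizations d` -/

theorem Bad_eq (d : Fin n → ℕ) (f : Finset (Edge n) → ℝ) :
    Bad d q.a q.b q.u q.v f
      = SW.badC (realizations d) (offU {q.a, q.b}) (fun G => SW.Blk4.ctr (q.blk G)) f := by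
  classical
  rw [Bad_def, SW.badC]
  have hset : ∀ S : Finset (Finset (Edge n)),
      S.filter (fun G => Split G q.a q.b q.u q.v)
        = S.filter (fun G => SW.Blk4.ctr (q.blk G)) := by
    intro S
    ext G
    simp only [Finset.mem_filter, split_iff, ctr_iff]
  rw [hset]
  refine Finset.sum_congr rfl fun G _ => ?_
  rw [hset, cls_eq, Qavg_eq]

theorem Bad_eq' (d : Fin n → ℕ) (f : Finset (Edge n) → ℝ) :
    Bad d q.u q.v q.a q.b f
      = SW.badC (realizations d) (offU {q.u, q.v}) (fun G => SW.Blk4.ctr (q.blk G)) f := by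
  classical
  rw [Bad_def, SW.badC]
  have hset : ∀ S : Finset (Finset (Edge n)),
      S.filter (fun G => Split G q.u q.v q.a q.b)
        = S.filter (fun G => SW.Blk4.ctr (q.blk G)) := by
    intro S
    ext G
    simp only [Finset.mem_filter, split_swap, ctr_iff]
  rw [hset]
  refine Finset.sum_congr rfl fun G _ => ?_
  rw [hset, cls_eq, Qavg_eq]

theorem Sw_eq (d : Fin n → ℕ) (f : Finset (Edge n) → ℝ) :
    Sw d q.a q.b q.u q.v f = ∑ G ∈ (realizations d).filter (fun G => q.blk G = Blk.cp),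
      (f G - f (flip q.a q.b q.u q.v G)) ^ 2 := by
  classical
  rw [Sw_def]
  refine Finset.sum_congr ?_ fun _ _ => rfl
  ext G
  simp only [Finset.mem_filter, swAt_iff]

theorem Sw_eq_sum_ite (d : Fin n → ℕ) (f : Finset (Edge n) → ℝ) :
    Sw d q.a q.b q.u q.v f = ∑ G ∈ realizations d,
      if q.blk G = Blk.cp then (f G - f (flip q.a q.b q.u q.v G)) ^ 2 else 0 := by
  rw [Sw_eq, Finset.sum_filter]

/-! ### localisation of `badC` -/

section generic

variable {X L Λ : Type*} [DecidableEq L] [DecidableEq Λ]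

/-- If the coarser key `lam` is constant on the classes of `ℓ` (inside `Ω`), `badC` of a
`lam`-fibre is the sum over the fibre of the global summands. -/
theorem badC_cls {Ω : Finset X} {ℓ : X → L} {lam : X → Λ}
    (h : ∀ x ∈ Ω, ∀ y ∈ Ω, ℓ x = ℓ y → lam x = lam y) (P : X → Prop) [DecidablePred P]
    (f : X → ℝ) (x0 : X) :
    SW.badC (SW.cls Ω lam x0) ℓ P f = ∑ x ∈ (SW.cls Ω lam x0).filter P,
      ((∑ y ∈ (SW.cls Ω ℓ x).filter P, f y) / (((SW.cls Ω ℓ x).filter P).card : ℝ)
        - SW.avg Ω ℓ f x) ^ 2 := by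
  rw [SW.badC]
  refine Finset.sum_congr rfl fun x hx => ?_
  have hx' := (Finset.mem_filter.1 hx).1
  rw [SW.cls_cls h hx', SW.avg_cls h f hx']

/-- `badC` on `Ω` as a sum with indicators (the form used by `sum_le_sum_of_fibrewise`). -/
theorem badC_eq_sum_ite (Ω : Finset X) (ℓ : X → L) (P : X → Prop) [DecidablePred P]
    (f : X → ℝ) :
    SW.badC Ω ℓ P f = ∑ x ∈ Ω, if P x then
      ((∑ y ∈ (SW.cls Ω ℓ x).filter P, f y) / (((SW.cls Ω ℓ x).filter P).card : ℝ)
        - SW.avg Ω ℓ f x) ^ 2 else 0 := by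
  rw [SW.badC, Finset.sum_filter]

end generic

/-! ### the switch energy of a fibre -/

/-- On a fibre of `q.key` the abstract switch energy `swC` is the sum over the `cp`-states of
`(f G - f (flip G))²`: the unique `cm`-state of the fibre with the same `A`- and `C`-part as a
`cp`-state `G` is `flip G`. -/
theorem swC_fibre {d : Fin n → ℕ} (f : Finset (Edge n) → ℝ) (G₀ : Finset (Edge n)) :
    SW.swC (SW.cls (realizations d) q.key G₀) q.blk q.partA q.partC f
      = ∑ G ∈ (SW.cls (realizations d) q.key G₀).filter (fun G => q.blk G = Blk.cp),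
          (f G - f (flip q.a q.b q.u q.v G)) ^ 2 := by
  rw [SW.swC, Finset.sum_filter]
  refine Finset.sum_congr rfl fun x hx => ?_
  obtain ⟨hxΩ, hxk⟩ := SW.mem_cls.1 hx
  by_cases hcp : q.blk x = Blk.cp
  · rw [if_pos hcp]
    obtain ⟨c1, c2, c3, c4, c5⟩ := flip_cp_coords q hxΩ hcp
    have hmem : flip q.a q.b q.u q.v x ∈ SW.cls (realizations d) q.key G₀ :=
      SW.mem_cls.2 ⟨c1, c2.trans hxk⟩
    rw [Finset.sum_eq_single (flip q.a q.b q.u q.v x)]
    · rw [if_pos ⟨hcp, c3, c4, c5⟩]
    · intro y hy hne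
      rw [if_neg]
      rintro ⟨-, hym, hyA, hyC⟩
      apply hne
      obtain ⟨-, hyk⟩ := SW.mem_cls.1 hy
      exact q.inj (hyk.trans (hxk.symm.trans c2.symm)) (hym.trans c3.symm) (hyA.trans c4.symm)
        (hyC.trans c5.symm)
    · intro hh
      exact absurd hmem hh
  · rw [if_neg hcp]
    refine Finset.sum_eq_zero fun y _ => ?_
    rw [if_neg]
    rintro ⟨hh, -⟩
    exact hcp hh

end Crest.Agent.Helper54.SW
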